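import Vale.Agent.P080.Separated

open Set

namespace Vale.Agent.Results.P080.SeparatedInfHarmonic

open Vale.Agent.P080

/-- Let `u(x) = ∑ i, a i (x i)` be infinity-harmonic on a box in `ℝ^d` (any `d`), with each `a i`
differentiable on its interval. Then there are constants `c i`, `e i` with `∑ i, c i = 0` and
`(a i')^3 = 3 c i t + e i` on the interval, and `u` is `C¹` on the box. -/
theorem result {d : ℕ} (α β : Fin d → ℝ) (hαβ : ∀ i, α i < β i) (a : Fin d → ℝ → ℝ)
    (hdiff : ∀ i, DifferentiableOn ℝ (a i) (Ioo (α i) (β i)))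
    (hu : IsInfinityHarmonic (Set.pi univ fun i => Ioo (α i) (β i)) (fun x => ∑ i, a i (x i))) :
    (∃ c e : Fin d → ℝ, ∑ i, c i = 0 ∧
      ∀ i, ∀ t ∈ Ioo (α i) (β i), deriv (a i) t ^ 3 = 3 * c i * t + e i) ∧
    ContDiffOn ℝ 1 (fun x : Fin d → ℝ => ∑ i, a i (x i)) (Set.pi univ fun i => Ioo (α i) (β i)) := by
  obtain ⟨c, e, hc, h⟩ := separated_classification α β hαβ a hdiff hu
  refine ⟨⟨c, e, hc, fun i => (h i).1⟩, ?_⟩
  apply ContDiffOn.sum
  intro i _
  have h1 : ContDiffOn ℝ 1 (fun x : Fin d → ℝ => x i) (Set.pi univ fun i => Ioo (α i) (β i)) :=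
    (contDiff_apply ℝ ℝ i).contDiffOn
  exact (h i).2.comp h1 (fun x hx => hx i (mem_univ i))

end Vale.Agent.Results.P080.SeparatedInfHarmonic
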