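import Vale.Agent.P080.Kink

namespace Vale.Agent.Results.P080.SeparatedNoKink

open Vale.Agent.P080

/-- If `u(x) = f_1(x_1) + ... + f_d(x_d)` with continuous `f_i` is infinity-harmonic on `ℝ^d` in the
viscosity sense, then no summand has a corner: wherever the left and the right derivative of `f_i`
exist they are equal.  So `u` has no gradient jump across a coordinate hyperplane. -/
theorem result {d : ℕ} (f : Fin d → ℝ → ℝ) (hf : ∀ i, Continuous (f i))
    (hu : IsInfinityHarmonic (fun x : Fin d → ℝ => ∑ i, f i (x i))) (i₀ : Fin d) {t₀ a b : ℝ}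
    (hr : HasDerivWithinAt (f i₀) b (Set.Ioi t₀) t₀)
    (hl : HasDerivWithinAt (f i₀) a (Set.Iio t₀) t₀) : a = b :=
  no_kink f hf hu i₀ hr hl

end Vale.Agent.Results.P080.SeparatedNoKink
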